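import Vale.Agent.Lib.P252.Ode
import Vale.Agent.Lib.P252.PdeMain

/-! Failure of the affine Bernstein property in every dimension at least ten. -/

namespace Vale.Agent.Results.P252.FailsFromTen

open scoped ContDiff

/-- The Hessian matrix of `u` at `x`: the matrix of second order derivatives. -/
noncomputable def hess {n : ℕ} (u : (Fin n → ℝ) → ℝ) (x : Fin n → ℝ) :
    Matrix (Fin n) (Fin n) ℝ :=
  Matrix.of fun i j =>
    fderiv ℝ (fun y => fderiv ℝ u y (Pi.single i 1)) x (Pi.single j 1)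

/-- The function `w = (det D²u)^(-(n+1)/(n+2))`. -/
noncomputable def weight {n : ℕ} (u : (Fin n → ℝ) → ℝ) (x : Fin n → ℝ) : ℝ :=
  (hess u x).det ^ (-((n : ℝ) + 1) / ((n : ℝ) + 2))

/-- `u` solves the affine maximal equation on the whole space:
`∑ U^{ij} ∂_{ij} w = 0` with `U^{ij} = det (D²u) (D²u)⁻¹_{ij}`. -/
def AffineMaximal {n : ℕ} (u : (Fin n → ℝ) → ℝ) : Prop :=
  ∀ x, ∑ i, ∑ j, ((hess u x).det * (hess u x)⁻¹ i j) * hess (weight u) x i j = 0

/-- `u` is a polynomial of degree at most two. -/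
def IsQuadratic {n : ℕ} (u : (Fin n → ℝ) → ℝ) : Prop :=
  ∃ (A : Matrix (Fin n) (Fin n) ℝ) (b : Fin n → ℝ) (c : ℝ),
    ∀ x, u x = (1 / 2) * (x ⬝ᵥ A.mulVec x) + b ⬝ᵥ x + c

/-- In every dimension `n ≥ 10` there is a smooth function on the whole of `ℝ^n` with positive
definite Hessian at every point which solves the affine maximal equation and is not a quadratic
polynomial. -/
theorem result : ∀ n : ℕ, 10 ≤ n → ∃ u : (Fin n → ℝ) → ℝ,
    ContDiff ℝ ∞ u ∧ (∀ x, (hess u x).PosDef) ∧ AffineMaximal u ∧ ¬ IsQuadratic u := by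
  intro n hn
  obtain ⟨k, rfl⟩ : ∃ k, n = k + 1 := ⟨n - 1, by omega⟩
  obtain ⟨f, a, b, b', h⟩ := Lib.P252.odePart k (by omega)
  obtain ⟨h1, h2, h3, h4⟩ := Lib.P252.pdePart k f a b b' (by omega) h
  exact ⟨Lib.P252.uf k f, h1, h2, h3, h4⟩

end Vale.Agent.Results.P252.FailsFromTen
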